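import Vale.Agent.P284.H248.Defs
import Mathlib.GroupTheory.Schreier
import Mathlib.RingTheory.Noetherian.Basic
import Mathlib.RingTheory.Finiteness.Basic
import Mathlib.RingTheory.PrincipalIdealDomain

/-!
# P284: a group with homomorphisms, with finite common kernel, into finitely many finitely generated
virtually abelian groups is virtually abelian
-/

namespace Vale.Agent.P284.R3.H348

open Vale.Agent.P284.H248

section
variable {G : Type*} [Group G]

/-- a subgroup whose cosets are separated by a map to a finite type has finite relative index -/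
theorem finiteIndex_of_sep {H C : Subgroup G} (hH : H.FiniteIndex) (hCH : C ≤ H) {T : Type*}
    [Finite T] (F : G → T) (hF : ∀ a ∈ H, ∀ b ∈ H, F a = F b → a⁻¹ * b ∈ C) : C.FiniteIndex := by
  have h1 : Finite (H ⧸ C.subgroupOf H) := by
    refine Finite.of_injective (fun q : H ⧸ C.subgroupOf H => F ((Quotient.out q : H) : G)) ?_
    intro p q h
    have h2 := hF _ (Quotient.out p).2 _ (Quotient.out q).2 h
    rw [← QuotientGroup.out_eq' p, ← QuotientGroup.out_eq' q]
    refine QuotientGroup.eq.2 ?_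
    rw [Subgroup.mem_subgroupOf]
    exact h2
  have h2 : C.relIndex H ≠ 0 := by
    rw [Subgroup.relIndex, Subgroup.index]
    exact Nat.card_pos.ne'
  exact ⟨by rw [← Subgroup.relIndex_mul_index hCH]; exact mul_ne_zero h2 hH.index_ne_zero⟩

theorem centralizer_finiteIndex {K : Subgroup G} [hn : K.Normal] [Finite K] :
    (Subgroup.centralizer (K : Set G)).FiniteIndex := by
  refine finiteIndex_of_sep (H := ⊤) inferInstance le_top
    (fun g => fun k : K => (⟨g * k * g⁻¹, hn.conj_mem k k.2 g⟩ : K)) fun a _ b _ h => ?_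
  rw [Subgroup.mem_centralizer_iff]
  intro k hk
  have h1 := congrArg Subtype.val (congrFun h ⟨k, hk⟩)
  have h2 : a * k * a⁻¹ = b * k * b⁻¹ := h1
  calc k * (a⁻¹ * b) = a⁻¹ * (a * k * a⁻¹) * b := by group
    _ = a⁻¹ * (b * k * b⁻¹) * b := by rw [h2]
    _ = a⁻¹ * b * k := by group

theorem virtuallyAbelian_of_finite_ker {ι : Type*} [Finite ι] {T : ι → Type*} [∀ i, Group (T i)]
    (hfg : ∀ i, Group.FG (T i)) (hva : ∀ i, VirtuallyAbelian (T i)) (φ : ∀ i, G →* T i)
    (hK : ((⨅ i, (φ i).ker : Subgroup G) : Set G).Finite) : VirtuallyAbelian G := by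
  classical
  have := Fintype.ofFinite ι
  choose H hH hcomm using hva
  set K : Subgroup G := ⨅ i, (φ i).ker with hKdef
  have hmemK : ∀ g, g ∈ K ↔ ∀ i, φ i g = 1 := fun g => by
    simp only [hKdef, Subgroup.mem_iInf, MonoidHom.mem_ker]
  have hKn : K.Normal := ⟨fun k hk g => (hmemK _).2 fun i => by
    rw [map_mul, map_mul, (hmemK k).1 hk i, mul_one, ← map_mul, mul_inv_cancel, map_one]⟩
  have hKf : Finite K := hK.to_subtype
  set G₁ : Subgroup G := ⨅ i, (H i).comap (φ i) with hG₁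
  have hG₁f : G₁.FiniteIndex := by
    refine Subgroup.finiteIndex_iInf fun i => ⟨?_⟩
    rw [Subgroup.index_comap]
    have := hH i
    exact (inferInstance : ((H i).subgroupOf (φ i).range).FiniteIndex).index_ne_zero
  set G₂ : Subgroup G := G₁ ⊓ Subgroup.centralizer (K : Set G) with hG₂
  have hG₂f : G₂.FiniteIndex := by
    have := centralizer_finiteIndex (K := K)
    infer_instance
  have hφ : ∀ g ∈ G₂, ∀ i, φ i g ∈ H i := fun g hg i => (Subgroup.mem_iInf.1 hg.1 i)
  let _ : ∀ i, CommGroup (H i) := fun i =>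
    { (inferInstance : Group (H i)) with
      mul_comm := fun a b => Subtype.ext (hcomm i a a.2 b b.2) }
  have hfin : ∀ i, Module.Finite ℤ (Additive (H i)) := fun i => by
    have := hH i
    have := hfg i
    have h1 : Group.FG (H i) := inferInstance
    have h2 : AddGroup.FG (Additive (H i)) := inferInstance
    exact Module.Finite.iff_addGroup_fg.2 h2
  have hnoe : IsNoetherian ℤ (∀ i, Additive (H i)) := isNoetherian_of_isNoetherianRing_of_finite ℤ _
  set Ψ : G₂ → (∀ i, Additive (H i)) := fun g i => Additive.ofMul ⟨φ i g, hφ g g.2 i⟩ with hΨ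
  have hΨm : ∀ a b, Ψ (a * b) = Ψ a + Ψ b := fun a b => by
    funext i
    refine congrArg Additive.ofMul (Subtype.ext ?_)
    exact map_mul (φ i) (a : G) (b : G)
  have hΨ1 : Ψ 1 = 0 := by
    funext i
    refine congrArg Additive.ofMul (Subtype.ext ?_)
    exact map_one (φ i)
  have hΨi : ∀ a, Ψ a⁻¹ = -Ψ a := fun a => by
    have h := hΨm a⁻¹ a
    rw [inv_mul_cancel, hΨ1] at h
    exact (neg_eq_of_add_eq_zero_left h.symm).symm
  have hΨK : ∀ a, Ψ a = 0 → (a : G) ∈ K := fun a h => (hmemK _).2 fun i => by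
    have h1 := congrArg (fun x : Additive (H i) => ((Additive.toMul x : H i) : T i)) (congrFun h i)
    exact h1
  obtain ⟨S', hS', hspan⟩ := Submodule.fg_span_iff_fg_span_finset_subset (Set.range Ψ) |>.1
    (IsNoetherian.noetherian (Submodule.span ℤ (Set.range Ψ)))
  -- preimages
  have hch : ∀ m : S', ∃ g, Ψ g = m := fun m => hS' m.2
  choose p hp using hch
  set S : Set G := Set.range fun m : S' => ((p m : G₂) : G) with hS
  have hSG : ∀ s ∈ S, s ∈ G₂ := by
    rintro _ ⟨m, rfl⟩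
    exact (p m).2
  have hlift : ∀ m ∈ Submodule.span ℤ (S' : Set (∀ i, Additive (H i))),
      ∃ g : G₂, (g : G) ∈ Subgroup.closure S ∧ Ψ g = m := by
    intro m hm
    refine Submodule.span_induction (p := fun m _ => ∃ g : G₂, (g : G) ∈ Subgroup.closure S ∧ Ψ g = m)
      ?_ ?_ ?_ ?_ hm
    · intro x hx
      exact ⟨p ⟨x, hx⟩, Subgroup.subset_closure ⟨⟨x, hx⟩, rfl⟩, hp ⟨x, hx⟩⟩
    · exact ⟨1, Subgroup.one_mem _, hΨ1⟩
    · rintro x y _ _ ⟨g, hg, rfl⟩ ⟨h, hh, rfl⟩
      exact ⟨g * h, Subgroup.mul_mem _ hg hh, hΨm g h⟩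
    · rintro c x _ ⟨g, hg, rfl⟩
      refine ⟨g ^ c, Subgroup.zpow_mem _ hg c, ?_⟩
      have h1 : ∀ n : ℕ, Ψ (g ^ n) = (n : ℤ) • Ψ g := by
        intro n
        induction n with
        | zero => simp [hΨ1]
        | succ n ih => rw [pow_succ, hΨm, ih, Nat.cast_succ, add_smul, one_smul]
      cases c with
      | ofNat n =>
        rw [Int.ofNat_eq_natCast, zpow_natCast]
        exact h1 n
      | negSucc n =>
        rw [zpow_negSucc, hΨi, h1, Int.negSucc_eq, neg_smul]
        rfl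
  have hdec : ∀ b ∈ G₂, ∃ k ∈ K, ∃ s ∈ Subgroup.closure S, b = k * s := by
    intro b hb
    have h1 : Ψ ⟨b, hb⟩ ∈ Submodule.span ℤ (S' : Set (∀ i, Additive (H i))) := by
      rw [← hspan]
      exact Submodule.subset_span ⟨_, rfl⟩
    obtain ⟨s, hs, hs'⟩ := hlift _ h1
    refine ⟨b * (s : G)⁻¹, ?_, s, hs, by group⟩
    have h2 : Ψ (⟨b, hb⟩ * s⁻¹) = 0 := by rw [hΨm, hΨi, hs', add_neg_cancel]
    exact hΨK _ h2
  -- the abelian subgroup
  have hSfin : Finite S := Set.finite_range _ |>.to_subtype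
  set C : Subgroup G := G₂ ⊓ Subgroup.centralizer S with hC
  have hcommK : ∀ a ∈ G₂, ∀ s ∈ G₂, a * s * a⁻¹ * s⁻¹ ∈ K := by
    intro a ha s hs
    have h2 : Ψ (⟨a, ha⟩ * ⟨s, hs⟩ * ⟨a, ha⟩⁻¹ * ⟨s, hs⟩⁻¹) = 0 := by
      rw [hΨm, hΨm, hΨm, hΨi, hΨi]
      abel
    exact hΨK _ h2
  refine ⟨C, ?_, ?_⟩
  · refine finiteIndex_of_sep hG₂f inf_le_left (T := S → K)
      (fun a s => if h : a ∈ G₂ then ⟨a * s * a⁻¹ * (s : G)⁻¹, hcommK a h s (hSG s s.2)⟩ else 1) ?_
    intro a ha b hb h
    refine ⟨G₂.mul_mem (G₂.inv_mem ha) hb, ?_⟩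
    show a⁻¹ * b ∈ Subgroup.centralizer S
    rw [Subgroup.mem_centralizer_iff]
    intro s hs
    have h1 := congrFun h ⟨s, hs⟩
    simp only [dif_pos ha, dif_pos hb] at h1
    have h2 : a * s * a⁻¹ * s⁻¹ = b * s * b⁻¹ * s⁻¹ := congrArg Subtype.val h1
    have h3 : a * s * a⁻¹ = b * s * b⁻¹ := mul_right_cancel h2
    calc s * (a⁻¹ * b) = a⁻¹ * (a * s * a⁻¹) * b := by group
      _ = a⁻¹ * (b * s * b⁻¹) * b := by rw [h3]
      _ = a⁻¹ * b * s := by group
  · intro a ha b hb
    obtain ⟨k, hk, s, hs, rfl⟩ := hdec b hb.1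
    have h1 : k * a = a * k := Subgroup.mem_centralizer_iff.1 ha.1.2 k hk
    have h2 : Subgroup.closure S ≤ Subgroup.centralizer {a} := by
      rw [Subgroup.closure_le]
      intro s hs
      rw [SetLike.mem_coe, Subgroup.mem_centralizer_singleton_iff]
      exact Subgroup.mem_centralizer_iff.1 ha.2 s hs
    have h3 : s * a = a * s := Subgroup.mem_centralizer_singleton_iff.1 (h2 hs)
    rw [← mul_assoc, ← h1, mul_assoc, ← h3, mul_assoc]

end

end Vale.Agent.P284.R3.H348
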