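import Vale.Agent.P284.R3.H348.Grp
import Mathlib.GroupTheory.Abelianization.Defs
import Mathlib.GroupTheory.Commutator.Basic

/-!
# P284: criterion for virtually abelian groups
-/

namespace Vale.Agent.P284.R3.H348

open Vale.Agent.P284.H248

theorem virtuallyAbelian_of_finiteIndex {G : Type*} [Group G] {H : Subgroup G}
    (hH : H.FiniteIndex) (h : VirtuallyAbelian H) : VirtuallyAbelian G := by
  obtain ⟨A, hA, hc⟩ := h
  refine ⟨A.map H.subtype, ⟨?_⟩, ?_⟩
  · rw [Subgroup.index_map_subtype]
    exact mul_ne_zero hA.index_ne_zero hH.index_ne_zero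
  · rintro _ ⟨a, ha, rfl⟩ _ ⟨b, hb, rfl⟩
    rw [← map_mul, hc a ha b hb, map_mul]

section
variable {G : Type} [Group G] {ι : Type} (T : ι → Type)

/-- the groups `H^ab`, `T i` -/
def TT (H : Subgroup G) : Option ι → Type
  | none => Abelianization H
  | some i => T i

instance [∀ i, Group (T i)] (H : Subgroup G) : ∀ o, Group (TT T H o)
  | none => inferInstanceAs (Group (Abelianization H))
  | some i => inferInstanceAs (Group (T i))

variable {T}

/-- the homomorphisms from `H` -/
def phiO [∀ i, Group (T i)] (φ : ∀ i, G →* T i) (H : Subgroup G) : ∀ o, H →* TT T H o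
  | none => Abelianization.of
  | some i => (φ i).comp H.subtype

/-- A finitely generated group with homomorphisms to finitely many finitely generated virtually
abelian groups is virtually abelian iff for some subgroup `H` of finite index the common kernel of
the homomorphisms meets the commutator subgroup of `H` in a finite group. -/
theorem virtuallyAbelian_iff [Finite ι] [∀ i, Group (T i)] (hG : Group.FG G)
    (hfg : ∀ i, Group.FG (T i)) (hva : ∀ i, VirtuallyAbelian (T i)) (φ : ∀ i, G →* T i) :
    VirtuallyAbelian G ↔ ∃ H : Subgroup G, H.FiniteIndex ∧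
      ((⁅H, H⁆ ⊓ ⨅ i, (φ i).ker : Subgroup G) : Set G).Finite := by
  constructor
  · rintro ⟨H, hfi, hc⟩
    refine ⟨H, hfi, ?_⟩
    have h1 : ⁅H, H⁆ = ⊥ := by
      rw [Subgroup.commutator_eq_bot_iff_le_centralizer]
      intro a ha
      rw [Subgroup.mem_centralizer_iff]
      intro b hb
      exact hc b hb a ha
    rw [h1, bot_inf_eq]
    exact Set.finite_singleton 1
  · rintro ⟨H, hfi, hfin⟩
    refine virtuallyAbelian_of_finiteIndex hfi ?_
    have hHfg : Group.FG H := inferInstance
    refine virtuallyAbelian_of_finite_ker (T := TT T H) ?_ ?_ (phiO φ H) ?_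
    · rintro (_ | i)
      · exact Group.fg_of_surjective (f := (Abelianization.of : H →* Abelianization H))
          (QuotientGroup.mk_surjective)
      · exact hfg i
    · rintro (_ | i)
      · refine ⟨⊤, inferInstance, fun a _ b _ => ?_⟩
        exact @mul_comm (Abelianization H) _ a b
      · exact hva i
    · refine Set.Finite.of_finite_image (f := Subtype.val) (hfin.subset ?_)
        (Subtype.val_injective.injOn)
      rintro _ ⟨h, hh, rfl⟩
      have h1 : ∀ o, phiO φ H o h = 1 := fun o => by
        have := (Subgroup.mem_iInf.1 hh) o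
        exact this
      refine ⟨?_, ?_⟩
      · rw [← Subgroup.map_subtype_commutator]
        refine ⟨h, ?_, rfl⟩
        have h2 : (Abelianization.of h : Abelianization H) = 1 := h1 none
        exact (QuotientGroup.eq_one_iff h).1 h2
      · exact Subgroup.mem_iInf.2 fun i => h1 (some i)

end

end Vale.Agent.P284.R3.H348
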