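import Mathlib.Data.ZMod.Basic
import Mathlib.Data.Matrix.Mul
import Mathlib.LinearAlgebra.Matrix.Notation
import Mathlib.Algebra.Module.Torsion.Free
import Mathlib.RingTheory.Int.Basic
import Mathlib.Tactic

/-!
# Minkowski's lemma: an integer matrix of finite order which is the identity modulo `3` is the
identity
-/

namespace Vale.Agent.P284.R3.H348

theorem one_add_pow {P : Type*} [Ring P] (X : P) (p : ℕ) :
    ∃ R : P, (1 + X) ^ p = 1 + (p : P) * X + X * X * R := by
  induction p with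
  | zero => exact ⟨0, by simp⟩
  | succ p ih =>
    obtain ⟨R, hR⟩ := ih
    refine ⟨(p : P) + R * (1 + X), ?_⟩
    have hc : (p : P) * X * X = X * X * (p : P) := by
      rw [mul_assoc]
      exact (Nat.cast_commute p (X * X)).eq
    rw [pow_succ, hR, Nat.cast_succ]
    calc (1 + (p : P) * X + X * X * R) * (1 + X)
        = 1 + ((p : P) * X + X) + ((p : P) * X * X + X * X * R * (1 + X)) := by noncomm_ring
      _ = 1 + ((p : P) + 1) * X + X * X * ((p : P) + R * (1 + X)) := by
          rw [hc]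
          noncomm_ring

theorem step {m : ℕ} {M C : Matrix (Fin m) (Fin m) ℤ} {p : ℕ} (hp : p.Prime) (h : M ^ p = 1)
    {j : ℕ} (hM : M = 1 + (3 ^ (j + 1) : ℤ) • C) :
    ∃ C' : Matrix (Fin m) (Fin m) ℤ, C = (3 : ℤ) • C' := by
  have h3j : (3 ^ (j + 1) : ℤ) ≠ 0 := pow_ne_zero _ (by norm_num)
  by_cases hp3 : p = 3
  · subst hp3
    have h1 : (3 ^ (j + 2) : ℤ) • (C + (3 : ℤ) • ((3 ^ j : ℤ) • (C * C) +
        (3 ^ (2 * j) : ℤ) • (C * C * C))) = 0 := by
      have h2 : M ^ 3 = 1 + (3 ^ (j + 2) : ℤ) • (C + (3 : ℤ) • ((3 ^ j : ℤ) • (C * C) +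
        (3 ^ (2 * j) : ℤ) • (C * C * C))) := by
        rw [hM]
        have e1 : ∀ X : Matrix (Fin m) (Fin m) ℤ,
            (1 + X) ^ 3 = 1 + ((3 : ℤ) • X + (3 : ℤ) • (X * X) + X * X * X) := fun X => by
          noncomm_ring
        rw [e1]
        simp only [Matrix.smul_mul, Matrix.mul_smul, smul_smul, smul_add]
        congr 1
        rw [← add_assoc]
        congr 1
        · congr 1
          · congr 1
            ring
          · congr 1
            ring
        · congr 1
          ring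
      rw [h] at h2
      exact (left_eq_add.1 h2)
    have h4 := (smul_eq_zero.1 h1).resolve_left (pow_ne_zero _ (by norm_num))
    refine ⟨-((3 ^ j : ℤ) • (C * C) + (3 ^ (2 * j) : ℤ) • (C * C * C)), ?_⟩
    rw [smul_neg]
    exact eq_neg_of_add_eq_zero_left h4
  · obtain ⟨R, hR⟩ := one_add_pow ((3 ^ (j + 1) : ℤ) • C) p
    rw [← hM, h] at hR
    have h1 : (3 ^ (j + 1) : ℤ) • ((p : ℤ) • C + (3 ^ (j + 1) : ℤ) • (C * C * R)) = 0 := by
      have h2 : ((p : ℕ) : Matrix (Fin m) (Fin m) ℤ) * ((3 ^ (j + 1) : ℤ) • C) +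
          (3 ^ (j + 1) : ℤ) • C * (3 ^ (j + 1) : ℤ) • C * R = 0 := by
        rw [add_assoc] at hR
        exact left_eq_add.1 hR
      rw [← h2, smul_add, smul_smul, smul_smul]
      congr 1
      · rw [← nsmul_eq_mul, ← natCast_zsmul, smul_smul, mul_comm]
      · simp only [Matrix.smul_mul, Matrix.mul_smul, smul_smul]
    have h4 := (smul_eq_zero.1 h1).resolve_left h3j
    have hcop : IsCoprime (p : ℤ) 3 := by
      have : Nat.Coprime p 3 := (Nat.coprime_primes hp Nat.prime_three).2 hp3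
      exact_mod_cast Nat.isCoprime_iff_coprime.2 this
    obtain ⟨a, b, hab⟩ := hcop
    have h5 : (p : ℤ) • C = -((3 ^ (j + 1) : ℤ) • (C * C * R)) := eq_neg_of_add_eq_zero_left h4
    refine ⟨-((a * 3 ^ j) • (C * C * R)) + b • C, ?_⟩
    calc C = (a * p + b * 3) • C := by rw [hab, one_smul]
      _ = a • ((p : ℤ) • C) + (b * 3) • C := by rw [add_smul, smul_smul]
      _ = (3 : ℤ) • (-((a * 3 ^ j) • (C * C * R)) + b • C) := by
          rw [h5, smul_add, smul_neg, smul_neg, smul_smul, smul_smul, smul_smul]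
          congr 1
          · congr 2
            ring
          · congr 1
            ring

theorem prime_case {m : ℕ} {M : Matrix (Fin m) (Fin m) ℤ} {p : ℕ} (hp : p.Prime) (h : M ^ p = 1)
    {C : Matrix (Fin m) (Fin m) ℤ} (hM : M = 1 + (3 : ℤ) • C) : M = 1 := by
  have h1 : ∀ j : ℕ, ∃ C : Matrix (Fin m) (Fin m) ℤ, M = 1 + (3 ^ (j + 1) : ℤ) • C := by
    intro j
    induction j with
    | zero => exact ⟨C, by rw [zero_add, pow_one]; exact hM⟩
    | succ j ih =>
      obtain ⟨C₁, h1⟩ := ih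
      obtain ⟨C₂, h2⟩ := step hp h h1
      refine ⟨C₂, ?_⟩
      rw [h1, h2, smul_smul]
      congr 2
  ext a b
  by_contra hne
  have h0 : M a b - (1 : Matrix (Fin m) (Fin m) ℤ) a b ≠ 0 := sub_ne_zero.2 hne
  obtain ⟨C₁, h2⟩ := h1 (M a b - (1 : Matrix (Fin m) (Fin m) ℤ) a b).natAbs
  have h3 : M a b - (1 : Matrix (Fin m) (Fin m) ℤ) a b =
      3 ^ ((M a b - (1 : Matrix (Fin m) (Fin m) ℤ) a b).natAbs + 1) * C₁ a b := by
    have := congrArg (fun A : Matrix (Fin m) (Fin m) ℤ => A a b) h2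
    simp only [Matrix.add_apply, Matrix.smul_apply, smul_eq_mul] at this
    linarith
  set z := M a b - (1 : Matrix (Fin m) (Fin m) ℤ) a b with hz
  have h4 : (3 ^ (z.natAbs + 1) : ℕ) ∣ z.natAbs := by
    have h5 : (3 : ℤ) ^ (z.natAbs + 1) ∣ z := ⟨_, h3⟩
    have h6 := Int.natAbs_dvd_natAbs.2 h5
    rwa [Int.natAbs_pow] at h6
  have h5 := Nat.le_of_dvd (Int.natAbs_pos.2 h0) h4
  have h6 : z.natAbs + 1 < 3 ^ (z.natAbs + 1) := Nat.lt_pow_self (by norm_num)
  omega

theorem minkowski {m : ℕ} (M : Matrix (Fin m) (Fin m) ℤ)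
    (hM : M.map (Int.castRingHom (ZMod 3)) = 1) {k : ℕ} (hk : 1 ≤ k) (h : M ^ k = 1) : M = 1 := by
  have hmod : ∀ N : Matrix (Fin m) (Fin m) ℤ, N.map (Int.castRingHom (ZMod 3)) = 1 →
      ∃ C : Matrix (Fin m) (Fin m) ℤ, N = 1 + (3 : ℤ) • C := by
    intro N hN
    have h1 : ∀ a b, (3 : ℤ) ∣ N a b - (1 : Matrix (Fin m) (Fin m) ℤ) a b := by
      intro a b
      have h2 := congrArg (fun A : Matrix (Fin m) (Fin m) (ZMod 3) => A a b) hN
      simp only [Matrix.map_apply] at h2
      have h3 : ((N a b - (1 : Matrix (Fin m) (Fin m) ℤ) a b : ℤ) : ZMod 3) = 0 := by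
        rw [Int.cast_sub, sub_eq_zero]
        refine h2.trans ?_
        by_cases hab : a = b
        · subst hab; simp
        · simp [Matrix.one_apply_ne hab]
      exact_mod_cast (ZMod.intCast_zmod_eq_zero_iff_dvd _ 3).1 h3
    choose C hC using h1
    refine ⟨Matrix.of C, ?_⟩
    ext a b
    rw [Matrix.add_apply, Matrix.smul_apply, Matrix.of_apply, smul_eq_mul, ← hC]
    ring
  induction k using Nat.strong_induction_on generalizing M with
  | _ k ih =>
    rcases Nat.lt_or_ge 1 k with h1 | h1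
    · obtain ⟨p, hp, k', rfl⟩ := Nat.exists_prime_and_dvd h1.ne'
      have hk' : 1 ≤ k' := Nat.one_le_iff_ne_zero.2 fun h0 => by
        rw [h0, mul_zero] at hk
        omega
      have h2 : (M ^ k').map (Int.castRingHom (ZMod 3)) = 1 := by
        have : (M ^ k').map (Int.castRingHom (ZMod 3)) =
            (M.map (Int.castRingHom (ZMod 3))) ^ k' :=
          map_pow (Int.castRingHom (ZMod 3)).mapMatrix M k'
        rw [this, hM, one_pow]
      obtain ⟨C, hC⟩ := hmod _ h2
      have h3 : M ^ k' = 1 := prime_case hp (by rw [← pow_mul, mul_comm]; exact h) hC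
      have h4 : k' < p * k' := by
        have := hp.two_le
        nlinarith
      exact ih k' h4 M hM hk' h3
    · have : k = 1 := le_antisymm h1 hk
      subst this
      rwa [pow_one] at h

end Vale.Agent.P284.R3.H348
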