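import Mathlib.Algebra.Module.ZLattice.Basic
import Mathlib.Analysis.Normed.Module.RieszLemma
import Mathlib.LinearAlgebra.Matrix.ToLin
import Mathlib.GroupTheory.Index
import Vale.Agent.P284.R3.H348.Mink

/-!
# P284: groups acting on a lattice by maps of finite order
-/

open Module

namespace Vale.Agent.P284.R3.H348

section
variable {E : Type*} [NormedAddCommGroup E] [NormedSpace ℝ E] [FiniteDimensional ℝ E]

/-- a subgroup with finitely many elements in every ball is discrete -/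
theorem discrete_of_finite {Λ : Submodule ℤ E} (hfin : {x | x ∈ Λ ∧ ‖x‖ ≤ 1}.Finite) :
    DiscreteTopology Λ := by
  have h1 : IsOpen ({x | x ∈ Λ ∧ ‖x‖ ≤ 1} \ {0} : Set E)ᶜ :=
    (hfin.subset Set.diff_subset).isClosed.isOpen_compl
  have h2 : IsOpen (Metric.ball (0 : E) 1 ∩ ({x | x ∈ Λ ∧ ‖x‖ ≤ 1} \ {0} : Set E)ᶜ) :=
    Metric.isOpen_ball.inter h1
  refine discreteTopology_of_isOpen_singleton_zero ?_
  refine ⟨_, h2, ?_⟩
  ext ⟨x, hx⟩
  constructor
  · rintro ⟨h3, h4⟩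
    have h3' : ‖x‖ < 1 := by simpa using h3
    by_contra h5
    refine h4 ⟨⟨hx, h3'.le⟩, fun h6 => h5 ?_⟩
    exact Subtype.ext h6
  · intro h3
    have h4 : x = 0 := congrArg Subtype.val h3
    subst h4
    refine ⟨by simp, fun h => h.2 rfl⟩

/-- a cobounded subgroup spans -/
theorem span_of_cobounded {Λ : Submodule ℤ E} {R : ℝ} (hco : ∀ x : E, ∃ l ∈ Λ, ‖l - x‖ ≤ R) :
    Submodule.span ℝ (Λ : Set E) = ⊤ := by
  by_contra hne
  have h1 : ∃ x : E, x ∉ Submodule.span ℝ (Λ : Set E) := by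
    by_contra h
    push Not at h
    exact hne (Submodule.eq_top_iff'.2 h)
  obtain ⟨x, hx, hd⟩ := riesz_lemma (Submodule.closed_of_finiteDimensional _) h1
    (r := 1 / 2) (by norm_num)
  have hx0 : 0 < ‖x‖ := norm_pos_iff.2 fun h => hx (h ▸ Submodule.zero_mem _)
  have hR : 0 ≤ R := by
    obtain ⟨l, -, hl⟩ := hco 0
    exact (norm_nonneg _).trans hl
  set t : ℝ := 2 * (R + 1) / ‖x‖ with ht
  have ht0 : 0 < t := by positivity
  obtain ⟨l, hl, hlR⟩ := hco (t • x)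
  have h2 := hd (t⁻¹ • l) (Submodule.smul_mem _ _ (Submodule.subset_span hl))
  have h3 : ‖l - t • x‖ = t * ‖x - t⁻¹ • l‖ := by
    have : l - t • x = -(t • (x - t⁻¹ • l)) := by
      rw [smul_sub, smul_smul, mul_inv_cancel₀ ht0.ne', one_smul]
      abel
    rw [this, norm_neg, norm_smul, Real.norm_of_nonneg ht0.le]
  rw [h3] at hlR
  have h4 : t * (1 / 2 * ‖x‖) ≤ R := (mul_le_mul_of_nonneg_left h2 ht0.le).trans hlR
  have h5 : t * (1 / 2 * ‖x‖) = R + 1 := by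
    rw [ht]
    field_simp
  linarith

/-- **Minkowski**: a group acting on a lattice by maps of finite order has, modulo the kernel, at
most as many elements as there are matrices with entries in `ℤ/3` -/
theorem exists_mod_three {Γ : Type*} [Group Γ] (Λ : Submodule ℤ E) [DiscreteTopology Λ]
    (hspan : Submodule.span ℝ (Λ : Set E) = ⊤) (A : Γ → E →ₗ[ℝ] E)
    (hmul : ∀ γ δ, A (γ * δ) = A γ ∘ₗ A δ) (hone : A 1 = LinearMap.id)
    (hΛ : ∀ γ, ∀ x ∈ Λ, A γ x ∈ Λ) (hord : ∀ γ, ∃ k : ℕ, 1 ≤ k ∧ A (γ ^ k) = LinearMap.id) :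
    ∃ F : Γ → Matrix (Fin (finrank ℝ E)) (Fin (finrank ℝ E)) (ZMod 3),
      ∀ γ δ, F γ = F δ → A (γ⁻¹ * δ) = LinearMap.id := by
  have hZ : IsZLattice ℝ Λ := ⟨hspan⟩
  have hfin : Module.Finite ℤ Λ := ZLattice.module_finite ℝ Λ
  have hfree : Module.Free ℤ Λ := ZLattice.module_free ℝ Λ
  let b : Basis (Fin (finrank ℝ E)) ℤ Λ := finBasisOfFinrankEq ℤ Λ (ZLattice.rank ℝ Λ)
  let R : Γ → Λ →ₗ[ℤ] Λ := fun γ => ((A γ).restrictScalars ℤ).restrict (hΛ γ)
  have hRmul : ∀ γ δ, R (γ * δ) = R γ ∘ₗ R δ := fun γ δ => by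
    ext x
    show A (γ * δ) x = A γ (A δ x)
    rw [hmul]
    rfl
  have hRid : ∀ γ, A γ = LinearMap.id → R γ = LinearMap.id := fun γ h => by
    ext x
    show A γ x = x
    rw [h]
    rfl
  have hRid' : ∀ γ, R γ = LinearMap.id → A γ = LinearMap.id := fun γ h => by
    refine LinearMap.ext_on hspan fun x hx => ?_
    have := congrArg (fun φ : Λ →ₗ[ℤ] Λ => ((φ ⟨x, hx⟩ : Λ) : E)) h
    exact this
  let M : Γ → Matrix (Fin (finrank ℝ E)) (Fin (finrank ℝ E)) ℤ := fun γ =>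
    LinearMap.toMatrix b b (R γ)
  have hMmul : ∀ γ δ, M (γ * δ) = M γ * M δ := fun γ δ => by
    show LinearMap.toMatrix b b (R (γ * δ)) = _
    rw [hRmul, LinearMap.toMatrix_comp b b b]
  have hMid : ∀ γ, R γ = LinearMap.id → M γ = 1 := fun γ h => by
    show LinearMap.toMatrix b b (R γ) = 1
    rw [h, LinearMap.toMatrix_id]
  have hMpow : ∀ γ (k : ℕ), M γ ^ k = M (γ ^ k) := by
    intro γ k
    induction k with
    | zero => rw [pow_zero, pow_zero, hMid 1 (hRid 1 hone)]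
    | succ k ih => rw [pow_succ, ih, ← hMmul, ← pow_succ]
  refine ⟨fun γ => (M γ).map (Int.castRingHom (ZMod 3)), fun γ δ h => hRid' _ ?_⟩
  have h1 : (M (γ⁻¹ * δ)).map (Int.castRingHom (ZMod 3)) = 1 := by
    have h2 : (M (γ⁻¹ * δ)).map (Int.castRingHom (ZMod 3)) =
        (M γ⁻¹).map (Int.castRingHom (ZMod 3)) * (M δ).map (Int.castRingHom (ZMod 3)) := by
      rw [hMmul, Matrix.map_mul]
    have h3 : (M γ).map (Int.castRingHom (ZMod 3)) = (M δ).map (Int.castRingHom (ZMod 3)) := h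
    rw [h2, ← h3, ← Matrix.map_mul, ← hMmul, inv_mul_cancel, hMid 1 (hRid 1 hone)]
    exact Matrix.map_one _ (map_zero _) (map_one _)
  obtain ⟨k, hk, hk'⟩ := hord (γ⁻¹ * δ)
  have h4 : M (γ⁻¹ * δ) = 1 := minkowski _ h1 hk (by rw [hMpow, hMid _ (hRid _ hk')])
  have h5 : LinearMap.toMatrix b b (R (γ⁻¹ * δ)) = LinearMap.toMatrix b b LinearMap.id := by
    rw [LinearMap.toMatrix_id]
    exact h4
  exact (LinearMap.toMatrix b b).injective h5

end

end Vale.Agent.P284.R3.H348
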