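import Mathlib.GroupTheory.Index
import Mathlib.GroupTheory.Finiteness
import Mathlib.GroupTheory.GroupAction.Quotient
import Mathlib.Algebra.Group.End

/-!
# Subgroups of bounded index of a finitely generated group

In a finitely generated group one subgroup of finite index is contained in all subgroups of
index at most `N`.
-/

namespace Vale.Agent.P284.R3.H348

/-- A finitely generated group has only finitely many homomorphisms to a finite group. -/
theorem finite_hom {G : Type*} [Group G] (hG : Group.FG G) (P : Type*) [Group P] [Finite P] :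
    Finite (G →* P) := by
  obtain ⟨S, hS⟩ := hG.out
  have hinj : Function.Injective (fun (f : G →* P) (s : (S : Set G)) => f s) := by
    intro f g h
    refine MonoidHom.eq_of_eqOn_dense hS ?_
    intro x hx
    exact congrFun h ⟨x, hx⟩
  exact Finite.of_injective _ hinj

/-- **Uniform subgroup of finite index.** A finitely generated group has a subgroup of finite
index which is contained in every subgroup of index at most `N`. -/
theorem exists_uniform {G : Type*} [Group G] (hG : Group.FG G) (N : ℕ) :
    ∃ H : Subgroup G, H.FiniteIndex ∧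
      ∀ A : Subgroup G, A.index ≠ 0 → A.index ≤ N → H ≤ A := by
  have : ∀ m : ℕ, Finite (G →* Equiv.Perm (Fin m)) := fun m => finite_hom hG _
  refine ⟨⨅ m : Fin (N + 1), ⨅ f : G →* Equiv.Perm (Fin m), f.ker, ?_, ?_⟩
  · refine Subgroup.finiteIndex_iInf fun m => Subgroup.finiteIndex_iInf fun f => ?_
    infer_instance
  · intro A hA hN g hg
    have : A.FiniteIndex := ⟨hA⟩
    have : Finite (G ⧸ A) := Subgroup.finite_quotient_of_finiteIndex
    let e : G ⧸ A ≃ Fin A.index := Finite.equivFinOfCardEq rfl
    let f : G →* Equiv.Perm (Fin A.index) :=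
      (e.permCongrHom : Equiv.Perm (G ⧸ A) →* Equiv.Perm (Fin A.index)).comp
        (MulAction.toPermHom G (G ⧸ A))
    have hgf : g ∈ f.ker := by
      have h1 := Subgroup.mem_iInf.1 hg ⟨A.index, Nat.lt_succ_of_le hN⟩
      exact Subgroup.mem_iInf.1 h1 f
    have h2 : f g = 1 := hgf
    have h3 : MulAction.toPermHom G (G ⧸ A) g = 1 := by
      have h4 : e.permCongrHom (MulAction.toPermHom G (G ⧸ A) g) = e.permCongrHom 1 :=
        h2.trans (map_one e.permCongrHom).symm
      exact e.permCongrHom.injective h4
    have h5 : g • ((1 : G) : G ⧸ A) = ((1 : G) : G ⧸ A) := by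
      have := congrArg (fun p : Equiv.Perm (G ⧸ A) => p ((1 : G) : G ⧸ A)) h3
      simpa using this
    have h6 : ((g * 1 : G) : G ⧸ A) = ((1 : G) : G ⧸ A) := h5
    have h7 := QuotientGroup.eq.1 h6
    simpa using h7

end Vale.Agent.P284.R3.H348
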